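import Mathlib
import Vale.Agent.P037.Defs
import Vale.Agent.P037.Main

open Vale.Agent.P037

theorem Vale.Agent.Results.P037.Disproof.result :
    ∃ H : Matrix (Fin 6) (Fin 6) Bool,
      (¬ ∃ c C : ℝ, 0 < c ∧ 0 < C ∧ ∀ n : ℕ, 1 ≤ n → ∀ ε : ℝ, 0 < ε → ε < 1 →
        ∀ A : Matrix (Fin n) (Fin n) Bool, ε ≤ distFree H A →
          c * ε ^ C * (n : ℝ) ^ (2 * 6) ≤ (numCopies H A : ℝ)) ∧
      (∀ ε : ℝ, 0 < ε → ε ≤ 1 / 30000 → ∃ n₀ : ℕ, ∀ n : ℕ, n₀ ≤ n →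
        ∃ A : Matrix (Fin n) (Fin n) Bool, ε ≤ distFree H A ∧
          (numCopies H A : ℝ) ≤ Real.exp (-(1 / 300) / Real.sqrt ε) * (n : ℝ) ^ (2 * 6)) :=
  ⟨pat, not_poly, quant⟩
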